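import Mathlib
import Vale.Agent.Lib.P252.Defs
import Vale.Agent.Lib.P252.OneD
import Vale.Agent.Lib.P252.Sep

/-!
# P252: entire separable solutions of the affine maximal equation are quadratic, in every dimension
-/

namespace Vale.Agent.Results.P252.SeparableEntire

open Matrix Finset
open Vale.Agent.Lib.P252

theorem contDiff_deriv2 {f : ℝ → ℝ} (hf : ContDiff ℝ 4 f) : ContDiff ℝ 2 (deriv (deriv f)) := by
  have h1 : ContDiff ℝ 3 (deriv f) := by
    have : ContDiff ℝ (3 + 1) f := by norm_num; exact hf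
    exact (contDiff_succ_iff_deriv.mp this).2.2
  have : ContDiff ℝ (2 + 1) (deriv f) := by norm_num; exact h1
  exact (contDiff_succ_iff_deriv.mp this).2.2

theorem diff_of_c2 {g : ℝ → ℝ} (hg : ContDiff ℝ 2 g) :
    Differentiable ℝ g ∧ Differentiable ℝ (deriv g) := by
  have h : ContDiff ℝ (1 + 1) g := by norm_num; exact hg
  refine ⟨hg.differentiable (by norm_num), ?_⟩
  exact ((contDiff_succ_iff_deriv.mp h).2.2).differentiable (by norm_num)

/-- Every `C^4` function `u` on `ℝ^n` (any `n`) of separable form `u(x) = ∑ f_i(x_i)` with positive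
definite Hessian that solves the affine maximal equation on all of `ℝ^n` is a quadratic polynomial
with positive definite quadratic part, i.e. its graph is an elliptic paraboloid. -/
theorem result (n : ℕ) (u : (Fin n → ℝ) → ℝ) (hu : ContDiff ℝ 4 u)
    (hpd : ∀ x, (hess u x).PosDef) (hAM : AffineMaximal u)
    (hsep : ∃ f : Fin n → ℝ → ℝ, ∀ x, u x = ∑ i, f i (x i)) :
    ∃ (A : Matrix (Fin n) (Fin n) ℝ) (b : Fin n → ℝ) (c : ℝ), A.PosDef ∧
      ∀ x, u x = (1 / 2) * (x ⬝ᵥ A *ᵥ x) + b ⬝ᵥ x + c := by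
  obtain ⟨f, hf⟩ := hsep
  have hu' : u = fun y => ∑ k, f k (y k) := funext hf
  subst hu'
  -- regularity of the one-variable pieces
  have hfc : ∀ i, ContDiff ℝ 4 (f i) := by
    intro i
    have h1 : f i = fun t => (∑ k, f k ((Pi.single i t : Fin n → ℝ) k)) - ∑ k ∈ univ.erase i, f k 0 := by
      funext t
      rw [← add_sum_erase univ _ (mem_univ i), Pi.single_eq_same]
      have : ∑ k ∈ univ.erase i, f k ((Pi.single i t : Fin n → ℝ) k) = ∑ k ∈ univ.erase i, f k 0 := by
        apply sum_congr rfl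
        intro k hk
        rw [Pi.single_eq_of_ne (ne_of_mem_erase hk)]
      rw [this]; ring
    rw [h1]
    have h2 : ContDiff ℝ 4 (fun t : ℝ => (Pi.single i t : Fin n → ℝ)) :=
      (ContinuousLinearMap.single ℝ (fun _ : Fin n => ℝ) i).contDiff
    exact (hu.comp h2).sub contDiff_const
  -- positivity of the second derivatives
  have hpos : ∀ i t, 0 < deriv (deriv (f i)) t := by
    intro i t
    have h1 := (hpd (fun _ => t)).diag_pos (i := i)
    rw [hess_sep] at h1
    simpa using h1
  set θ := (-((n : ℝ) + 1) / ((n : ℝ) + 2)) with hθ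
  have hθne : θ ≠ 0 := by
    rw [hθ]
    have h1 : (0 : ℝ) < (n : ℝ) + 1 := by positivity
    have h2 : (0 : ℝ) < (n : ℝ) + 2 := by positivity
    exact div_ne_zero (by linarith) h2.ne'
  set a : Fin n → ℝ → ℝ := fun i t => deriv (deriv (f i)) t with ha
  set φ : Fin n → ℝ → ℝ := fun i t => a i t ^ θ with hφ
  have hφpos : ∀ i t, 0 < φ i t := fun i t => Real.rpow_pos_of_pos (hpos i t) _
  have hφc : ∀ i, ContDiff ℝ 2 (φ i) := fun i =>
    (contDiff_deriv2 (hfc i)).rpow_const_of_ne fun t => (hpos i t).ne'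
  set ψ : Fin n → ℝ → ℝ := fun i t => deriv (deriv (φ i)) t / (a i t * φ i t) with hψ
  have hsum : ∀ x : Fin n → ℝ, ∑ i, ψ i (x i) = 0 := fun x => am_sep f hpos hAM x
  -- separation of variables
  have hconst : ∀ i t, ψ i t = ψ i 0 := by
    intro i t
    have h1 := hsum (Pi.single i t)
    have h2 := hsum 0
    rw [← add_sum_erase univ _ (mem_univ i), Pi.single_eq_same] at h1
    rw [← add_sum_erase univ _ (mem_univ i)] at h2
    have : ∑ k ∈ univ.erase i, ψ k ((Pi.single i t : Fin n → ℝ) k)
        = ∑ k ∈ univ.erase i, ψ k ((0 : Fin n → ℝ) k) := by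
      apply sum_congr rfl
      intro k hk
      rw [Pi.single_eq_of_ne (ne_of_mem_erase hk)]; rfl
    rw [this] at h1
    simp only [Pi.zero_apply] at h1 h2
    linarith
  have hode : ∀ i t, deriv (deriv (φ i)) t = ψ i 0 * (a i t * φ i t) := by
    intro i t
    rw [← hconst i t]
    have : a i t * φ i t ≠ 0 := (mul_pos (hpos i t) (hφpos i t)).ne'
    simp only [hψ]
    rw [div_mul_cancel₀ _ this]
  have hflat : ∀ i, ψ i 0 ≤ 0 → ∀ t, deriv (φ i) t = 0 := by
    intro i hi t
    apply deriv_eq_zero_of_pos_of_deriv2_nonpos (φ i) (diff_of_c2 (hφc i)).1 (diff_of_c2 (hφc i)).2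
      (hφpos i)
    intro s
    rw [hode]
    exact mul_nonpos_of_nonpos_of_nonneg hi (mul_pos (hpos i s) (hφpos i s)).le
  have hnonneg : ∀ i, 0 ≤ ψ i 0 := by
    intro i
    by_contra hneg
    push Not at hneg
    have h1 := hflat i hneg.le
    have h2 : deriv (φ i) = fun _ => 0 := funext h1
    have h3 : ψ i 0 = 0 := by
      simp only [hψ]
      rw [h2]
      simp
    linarith
  have hzero : ∀ i, ψ i 0 = 0 := by
    have h0 := hsum 0
    simp only [Pi.zero_apply] at h0
    intro i
    exact (sum_eq_zero_iff_of_nonneg fun i _ => hnonneg i).mp h0 i (mem_univ i)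
  have haconst : ∀ i t, a i t = a i 0 := by
    intro i t
    have h1 := hflat i (hzero i).le
    have h2 : φ i t = φ i 0 := is_const_of_deriv_eq_zero (diff_of_c2 (hφc i)).1 h1 t 0
    exact (Real.rpow_left_inj (hpos i t).le (hpos i 0).le hθne).mp h2
  have hquad : ∀ i t, f i t = a i 0 / 2 * t ^ 2 + deriv (f i) 0 * t + f i 0 := by
    intro i t
    have h4 : ContDiff ℝ (3 + 1) (f i) := by norm_num; exact hfc i
    have h3 : ContDiff ℝ 3 (deriv (f i)) := (contDiff_succ_iff_deriv.mp h4).2.2
    exact quadratic_of_deriv2_const (f i) ((hfc i).differentiable (by norm_num))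
      (h3.differentiable (by norm_num)) (a i 0) (fun s => haconst i s) t
  refine ⟨diagonal fun i => a i 0, fun i => deriv (f i) 0, ∑ i, f i 0, ?_, ?_⟩
  · rw [posDef_diagonal_iff]
    exact fun i => hpos i 0
  · intro x
    simp only [dotProduct, mulVec_diagonal]
    rw [mul_sum, ← sum_add_distrib, ← sum_add_distrib]
    apply sum_congr rfl
    intro i _
    rw [hquad i (x i)]
    ring

end Vale.Agent.Results.P252.SeparableEntire
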